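import Mathlib

/-! # Excursions of a slowly varying sequence and good scales

`V : ℕ → ℝ` is a sequence with the following properties: outside `[-V0, V0]` the sign does not
change from one index to the next and `|V|` drops by at most a factor `2^(1+k)`; `|V n| ≤ V0` for
infinitely many `n`.  Then there are infinitely many ends `n` of excursions at which one of the two
one-sided weighted sums `∑_{m ≤ n} 2^(-(1-k)(n-m)) (± V m)⁺` is bounded by a fixed constant. -/

set_option autoImplicit false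

namespace Vale.Agent.P097.H813

/-- Slowly varying sequence with sign-coherent excursions outside `[-V0, V0]`. -/
structure Exc (V : ℕ → ℝ) (V0 k : ℝ) : Prop where
  V0pos : 0 < V0
  kpos : 0 < k
  kle : k ≤ 1 / 40
  sg : ∀ n, V0 < |V n| → 0 < V n * V (n + 1)
  gr : ∀ n, V0 < |V n| → |V n| ≤ (2 : ℝ) ^ (1 + k) * |V (n + 1)|
  th : ∀ N, ∃ n, N ≤ n ∧ |V n| ≤ V0

namespace Exc

variable {V : ℕ → ℝ} {V0 k : ℝ}

/-- The first thick index `≥ m`. -/
noncomputable def e (V : ℕ → ℝ) (V0 : ℝ) (m : ℕ) : ℕ := sInf {n | m ≤ n ∧ |V n| ≤ V0}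

lemma e_mem (h : Exc V V0 k) (m : ℕ) : m ≤ e V V0 m ∧ |V (e V V0 m)| ≤ V0 := by
  have : (e V V0 m) ∈ {n | m ≤ n ∧ |V n| ≤ V0} := by
    apply Nat.sInf_mem
    obtain ⟨n, hn⟩ := h.th m
    exact ⟨n, hn⟩
  exact this

lemma e_le {m n : ℕ} (h1 : m ≤ n) (h2 : |V n| ≤ V0) : e V V0 m ≤ n :=
  Nat.sInf_le (show n ∈ {n | m ≤ n ∧ |V n| ≤ V0} from ⟨h1, h2⟩)

lemma lt_of_lt_e {m n : ℕ} (h1 : m ≤ n) (h2 : n < e V V0 m) : V0 < |V n| := by
  by_contra hc
  have := e_le h1 (not_lt.mp hc)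
  omega

lemma lt_e (h : Exc V V0 k) {m : ℕ} (hm : V0 < |V m|) : m < e V V0 m := by
  obtain ⟨h1, h2⟩ := h.e_mem m
  rcases h1.lt_or_eq with h3 | h3
  · exact h3
  · rw [← h3] at h2
    exact absurd hm (not_lt.mpr h2)

lemma abs_of_sign {s x : ℝ} (hs : s = 1 ∨ s = -1) (hx : 0 < s * x) : |x| = s * x := by
  rcases hs with rfl | rfl
  · rw [one_mul] at hx ⊢; exact abs_of_pos hx
  · have : x < 0 := by linarith
    rw [abs_of_neg this]; ring

lemma lt_absV (h : Exc V V0 k) {s : ℝ} (hs : s = 1 ∨ s = -1) {m : ℕ} (hm : V0 < s * V m) :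
    V0 < |V m| := by
  rw [abs_of_sign hs (h.V0pos.trans hm)]; exact hm

lemma sign_keep (h : Exc V V0 k) {s : ℝ} (hs : s = 1 ∨ s = -1) {m : ℕ} (hm : V0 < s * V m) :
    ∀ j, m + j ≤ e V V0 m → 0 < s * V (m + j) := by
  intro j
  induction j with
  | zero => intro _; exact h.V0pos.trans hm
  | succ j ih =>
    intro hj
    have h1 : m + j < e V V0 m := by omega
    have h2 := ih h1.le
    have h3 : V0 < |V (m + j)| := lt_of_lt_e (by omega) h1
    have h4 := h.sg _ h3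
    have h5 : m + (j + 1) = m + j + 1 := by ring
    rw [h5]
    by_contra hc
    rw [not_lt] at hc
    have hss : s * s = 1 := by rcases hs with rfl | rfl <;> norm_num
    have : V (m + j) * V (m + j + 1) = (s * V (m + j)) * (s * V (m + j + 1)) := by
      calc V (m + j) * V (m + j + 1) = (s * s) * (V (m + j) * V (m + j + 1)) := by
            rw [hss, one_mul]
        _ = _ := by ring
    rw [this] at h4
    nlinarith

lemma grow (h : Exc V V0 k) {m : ℕ} :
    ∀ j, m + j ≤ e V V0 m → |V m| ≤ (2 : ℝ) ^ ((1 + k) * j) * |V (m + j)| := by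
  intro j
  induction j with
  | zero => intro _; simp
  | succ j ih =>
    intro hj
    have h1 : m + j < e V V0 m := by omega
    have h2 := ih h1.le
    have h3 : V0 < |V (m + j)| := lt_of_lt_e (by omega) h1
    have h4 := h.gr _ h3
    have h5 : m + (j + 1) = m + j + 1 := by ring
    rw [h5]
    calc |V m| ≤ (2 : ℝ) ^ ((1 + k) * j) * |V (m + j)| := h2
      _ ≤ (2 : ℝ) ^ ((1 + k) * j) * ((2 : ℝ) ^ (1 + k) * |V (m + j + 1)|) := by gcongr
      _ = (2 : ℝ) ^ ((1 + k) * ((j + 1 : ℕ) : ℝ)) * |V (m + j + 1)| := by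
        rw [← mul_assoc, ← Real.rpow_add (by norm_num)]
        congr 2
        push_cast; ring

lemma grow_e (h : Exc V V0 k) (m : ℕ) :
    |V m| ≤ V0 * (2 : ℝ) ^ ((1 + k) * ((e V V0 m : ℝ) - m)) := by
  obtain ⟨h1, h2⟩ := h.e_mem m
  obtain ⟨j, hj⟩ := Nat.exists_eq_add_of_le h1
  have h3 := h.grow (m := m) j (by omega)
  rw [← hj] at h3
  have h4 : ((e V V0 m : ℝ) - m) = j := by rw [hj]; push_cast; ring
  rw [h4]
  calc |V m| ≤ (2 : ℝ) ^ ((1 + k) * j) * |V (e V V0 m)| := h3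
    _ ≤ (2 : ℝ) ^ ((1 + k) * j) * V0 := by gcongr
    _ = _ := by ring

/-- `n` is bad for the sign `s`: a long excursion of sign `s` ended shortly before `n`. -/
def Bad (V : ℕ → ℝ) (V0 : ℝ) (s : ℝ) (n : ℕ) : Prop :=
  ∃ m, V0 < s * V m ∧ e V V0 m ≤ n ∧ (n : ℝ) - e V V0 m < ((e V V0 m : ℝ) - m) / 4

/-- The one-sided weighted sum. -/
noncomputable def S (V : ℕ → ℝ) (k s : ℝ) (n : ℕ) : ℝ :=
  ∑ m ∈ Finset.range (n + 1), (2 : ℝ) ^ (-(1 - k) * ((n : ℝ) - m)) * max (s * V m) 0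

lemma geom (hk : 0 < k) (n : ℕ) :
    ∑ m ∈ Finset.range (n + 1), (2 : ℝ) ^ (-k * ((n : ℝ) - m)) ≤ (1 - (2 : ℝ) ^ (-k))⁻¹ := by
  have h0 : (0 : ℝ) ≤ (2 : ℝ) ^ (-k) := by positivity
  have h1 : (2 : ℝ) ^ (-k) < 1 := Real.rpow_lt_one_of_one_lt_of_neg (by norm_num) (by linarith)
  have h2 : ∑ m ∈ Finset.range (n + 1), (2 : ℝ) ^ (-k * ((n : ℝ) - m)) =
      ∑ j ∈ Finset.range (n + 1), ((2 : ℝ) ^ (-k)) ^ j := by
    rw [← Finset.sum_range_reflect]
    apply Finset.sum_congr rfl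
    intro j hj
    rw [Finset.mem_range] at hj
    rw [← Real.rpow_natCast, ← Real.rpow_mul (by norm_num)]
    congr 2
    have : n + 1 - 1 - j = n - j := by omega
    rw [this, Nat.cast_sub (by omega)]
    ring
  rw [h2]
  calc ∑ j ∈ Finset.range (n + 1), ((2 : ℝ) ^ (-k)) ^ j ≤ ∑' j, ((2 : ℝ) ^ (-k)) ^ j :=
        (summable_geometric_of_lt_one h0 h1).sum_le_tsum _ (fun _ _ => by positivity)
    _ = _ := tsum_geometric_of_lt_one h0 h1

lemma S_le (h : Exc V V0 k) {s : ℝ} (hs : s = 1 ∨ s = -1) {n : ℕ} (hn : |V n| ≤ V0)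
    (hb : ¬ Bad V V0 s n) : S V k s n ≤ V0 * (1 - (2 : ℝ) ^ (-k))⁻¹ := by
  have hk := h.kpos
  have hk2 := h.kle
  have h0 := h.V0pos
  calc S V k s n ≤ ∑ m ∈ Finset.range (n + 1), V0 * (2 : ℝ) ^ (-k * ((n : ℝ) - m)) := by
        apply Finset.sum_le_sum
        intro m hm
        rw [Finset.mem_range] at hm
        have hmn : (m : ℝ) ≤ n := by exact_mod_cast Nat.lt_succ_iff.mp hm
        by_cases hc : V0 < s * V m
        · have ha : |V m| = s * V m := abs_of_sign hs (h0.trans hc)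
          have he : e V V0 m ≤ n := e_le (Nat.lt_succ_iff.mp hm) hn
          have hg : ((e V V0 m : ℝ) - m) / 4 ≤ (n : ℝ) - e V V0 m := by
            by_contra hcc
            exact hb ⟨m, hc, he, not_le.mp hcc⟩
          have hl : (m : ℝ) ≤ e V V0 m := by exact_mod_cast (h.e_mem m).1
          have h5 := h.grow_e m
          rw [max_eq_left (h0.trans hc).le, ← ha]
          calc (2 : ℝ) ^ (-(1 - k) * ((n : ℝ) - m)) * |V m|
              ≤ (2 : ℝ) ^ (-(1 - k) * ((n : ℝ) - m)) *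
                (V0 * (2 : ℝ) ^ ((1 + k) * ((e V V0 m : ℝ) - m))) := by gcongr
            _ = V0 * (2 : ℝ) ^ (-(1 - k) * ((n : ℝ) - m) + (1 + k) * ((e V V0 m : ℝ) - m)) := by
                rw [Real.rpow_add (by norm_num)]; ring
            _ ≤ V0 * (2 : ℝ) ^ (-k * ((n : ℝ) - m)) := by
                apply mul_le_mul_of_nonneg_left _ h0.le
                apply Real.rpow_le_rpow_of_exponent_le (by norm_num)
                nlinarith
        · rw [not_lt] at hc
          have h6 : max (s * V m) 0 ≤ V0 := max_le hc h0.le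
          calc (2 : ℝ) ^ (-(1 - k) * ((n : ℝ) - m)) * max (s * V m) 0
              ≤ (2 : ℝ) ^ (-(1 - k) * ((n : ℝ) - m)) * V0 := by gcongr
            _ ≤ (2 : ℝ) ^ (-k * ((n : ℝ) - m)) * V0 := by
                apply mul_le_mul_of_nonneg_right _ h0.le
                apply Real.rpow_le_rpow_of_exponent_le (by norm_num)
                nlinarith
            _ = _ := mul_comm _ _
    _ = V0 * ∑ m ∈ Finset.range (n + 1), (2 : ℝ) ^ (-k * ((n : ℝ) - m)) := by
        rw [Finset.mul_sum]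
    _ ≤ _ := by gcongr; exact geom hk n

lemma chain (h : Exc V V0 k) (n0 : ℕ) : ∀ b : ℕ, ∀ (s : ℝ) (m : ℕ), (s = 1 ∨ s = -1) →
    V0 < s * V m → e V V0 m = b → b ≤ n0 → (n0 : ℝ) - b ≤ ((b : ℝ) - m) / 2 →
    ∃ (s' : ℝ) (m' : ℕ), (s' = 1 ∨ s' = -1) ∧ V0 < s' * V m' ∧ e V V0 m' ≤ n0 ∧
      (n0 : ℝ) - e V V0 m' ≤ ((e V V0 m' : ℝ) - m') / 2 ∧ ¬ Bad V V0 (-s') (e V V0 m') := by
  intro b
  induction b using Nat.strong_induction_on with
  | _ b ih =>
    intro s m hs hm hb hbn hl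
    by_cases hbad : Bad V V0 (-s) b
    · obtain ⟨m1, hm1, he1, hd1⟩ := hbad
      have hs' : -s = 1 ∨ -s = -1 := by
        rcases hs with rfl | rfl
        · right; rfl
        · left; norm_num
      have hmb : m < b := by rw [← hb]; exact h.lt_e (h.lt_absV hs hm)
      have hm1e : m1 < e V V0 m1 := h.lt_e (h.lt_absV hs' hm1)
      have hne : e V V0 m1 ≠ b := by
        intro heq
        obtain ⟨j, hj⟩ := Nat.exists_eq_add_of_lt hmb
        obtain ⟨j1, hj1⟩ := Nat.exists_eq_add_of_lt (heq ▸ hm1e)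
        have p1 := h.sign_keep hs hm j (by omega)
        have p2 := h.sign_keep hs' hm1 j1 (by omega)
        have h7 : m + j = m1 + j1 := by omega
        rw [h7] at p1
        linarith
      have hlt : e V V0 m1 < b := lt_of_le_of_ne he1 hne
      have hem : e V V0 m1 ≤ m := by
        by_contra hc
        rw [not_le] at hc
        have := e_le (V := V) (V0 := V0) hc.le (h.e_mem m1).2
        omega
      have hem' : (e V V0 m1 : ℝ) ≤ m := by exact_mod_cast hem
      have hm1' : (m1 : ℝ) < e V V0 m1 := by exact_mod_cast hm1e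
      refine ih (e V V0 m1) hlt (-s) m1 hs' hm1 rfl (by omega) ?_
      have h8 : (b : ℝ) - m < ((e V V0 m1 : ℝ) - m1) / 4 := by linarith
      linarith
    · exact ⟨s, m, hs, hm, by omega, by rw [hb]; exact hl, by rw [hb]; exact hbad⟩

/-- **Good scales.**  There are infinitely many ends of excursions at which one of the two
one-sided sums is at most `V0 / (1 - 2^(-k))`. -/
theorem good (h : Exc V V0 k) (hex : ∀ N, ∃ n, N ≤ n ∧ V0 < |V n|) (N : ℕ) :
    ∃ n, N ≤ n ∧ 0 < n ∧ V0 < |V (n - 1)| ∧ |V n| ≤ V0 ∧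
      (S V k 1 n ≤ V0 * (1 - (2 : ℝ) ^ (-k))⁻¹ ∨ S V k (-1) n ≤ V0 * (1 - (2 : ℝ) ^ (-k))⁻¹) := by
  obtain ⟨m0, hm0, hV⟩ := hex (2 * N)
  have hsg : ∃ s : ℝ, (s = 1 ∨ s = -1) ∧ V0 < s * V m0 := by
    rcases _root_.lt_abs.mp hV with h1 | h1
    · exact ⟨1, Or.inl rfl, by linarith⟩
    · exact ⟨-1, Or.inr rfl, by linarith⟩
  obtain ⟨s, hs, hsV⟩ := hsg
  have hle := (h.e_mem m0).1
  have hle' : (m0 : ℝ) ≤ e V V0 m0 := by exact_mod_cast hle
  obtain ⟨s', m', hs', hm', hen, hd, hnb⟩ := h.chain (e V V0 m0) (e V V0 m0) s m0 hs hsV rfl le_rfl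
    (by linarith)
  have hlt : m' < e V V0 m' := h.lt_e (h.lt_absV hs' hm')
  have hth := (h.e_mem m').2
  refine ⟨e V V0 m', ?_, by omega, ?_, hth, ?_⟩
  · have h1 : (2 * N : ℝ) ≤ e V V0 m0 := by exact_mod_cast hm0.trans hle
    have h2 : (0 : ℝ) ≤ m' := Nat.cast_nonneg _
    have h3 : (N : ℝ) ≤ e V V0 m' := by linarith
    exact_mod_cast h3
  · exact lt_of_lt_e (m := m') (by omega) (by omega)
  · rcases hs' with rfl | rfl
    · right
      exact h.S_le (Or.inr rfl) hth hnb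
    · left
      rw [neg_neg] at hnb
      exact h.S_le (Or.inl rfl) hth hnb

end Exc

end Vale.Agent.P097.H813
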